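import Vale.Agent.P181.LK.Almost
import Vale.Agent.P181.H530.LKNum
import Vale.Agent.P181.H318.LKNum8

/-!
P181: all `b` between `C a log^2 a` and `a^(8/7)`: almost all partitions.
-/

set_option autoImplicit false

open scoped TensorProduct

namespace Vale.Agent.P181.LK

open Vale.Agent.P181 Vale.Agent.P181.H280 Vale.Agent.P181.H179 Vale.Agent.P181.H676 Finset Filter

theorem numLK : NumLK := fun _ _ _ _ h1 h2 h3 h4 h5 => H530.numLK h1 h2 h3 h4 h5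

/-- **Almost all partitions, all `b`.** -/
theorem headLK : ∀ᶠ a : ℕ in atTop, ∀ b : ℕ,
    (10 : ℝ) ^ 8 * (a : ℝ) * (Real.log a) ^ 2 ≤ b → (b : ℝ) ≤ (a : ℝ) ^ ((8 : ℝ) / 7) →
    ∃ Ψ : Pleth a b a →ₗ[ℂ] Pleth b a a, IsEquivariant Ψ ∧
      a * {lam : Fin a → ℕ | Antitone lam ∧ ∑ i, lam i = a * b ∧
        ¬ (InjOnHW Ψ lam ∧ plethMult a b a lam ≤ plethMult b a a lam)}.ncard ≤
      {lam : Fin a → ℕ | Antitone lam ∧ ∑ i, lam i = a * b}.ncard := by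
  filter_upwards [H318.num8, eventually_ge_atTop 2] with a ha ha2 b hb1 hb2
  obtain ⟨s, hs, h1, h2, h3⟩ := ha b hb1 hb2
  obtain ⟨Ψ, hΨ, h4⟩ := almost_countLK numLK (b := b) (u := b % a) ha2 hs h1
    (Nat.mod_lt _ (by omega)) (by rw [mul_comm]; exact (Nat.div_add_mod b a).symm) h2
  refine ⟨Ψ, hΨ, ?_⟩
  obtain ⟨B, hB⟩ : ∃ B, B = {lam : Fin a → ℕ | Antitone lam ∧ ∑ i, lam i = a * b ∧
      ¬ (InjOnHW Ψ lam ∧ plethMult a b a lam ≤ plethMult b a a lam)}.ncard := ⟨_, rfl⟩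
  obtain ⟨A, hA⟩ : ∃ A, A = {lam : Fin a → ℕ | Antitone lam ∧ ∑ i, lam i = a * b}.ncard :=
    ⟨_, rfl⟩
  rw [← hB, ← hA] at h4
  rw [← hB, ← hA]
  have h5 : (a * b + 17) * (a * B) ≤ (a * b + 17) * A := by
    calc (a * b + 17) * (a * B) = B * (a * (a * b + 17)) := by ring
      _ ≤ B * 2 ^ (s / 4) := Nat.mul_le_mul_left B h3
      _ ≤ _ := h4
  exact Nat.le_of_mul_le_mul_left h5 (by omega)

end Vale.Agent.P181.LK
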