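import Vale.Agent.P181.BK.Spec

/-!
P181: `b = q a + u` with `u` special groups in almost full columns: statements of the rows.
-/

set_option autoImplicit false

namespace Vale.Agent.P181.LK

open Vale.Agent.P181 Vale.Agent.P181.H280 Vale.Agent.P181.H179 Finset

/-- Row GA: the exchange of one box of a column with the boxes of a longer column. -/
def RowGA : Prop := ∀ (n a N : ℕ) (l : Fin N → ℕ)
  (F : MultilinearMap ℂ (fun _ : Fin a => MvPolynomial (Fin n) ℂ) ℂ) (e : Box l → Fin a)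
  (t t1 : Fin N), t ≠ t1 → l t ≤ l t1 → ∀ v : Fin (l t),
  VV F l e = ∑ w : Fin (l t1), VV F l (fun p => e (Equiv.swap ⟨t, v⟩ ⟨t1, w⟩ p))

/-- The exchange of the boxes `x i` with the boxes `w (ι i)`. -/
noncomputable def exch {B A : Type} [DecidableEq B] {k m : ℕ} (x : Fin k → B) (w : Fin m → B)
    (ι : Fin k → Fin m) (e : B → A) : B → A := fun p =>
  open Classical in
  if h : ∃ i, x i = p then e (w (ι h.choose))
  else if h : ∃ i, w (ι i) = p then e (x h.choose) else e p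

/-- Row GK: the exchange of `k` boxes, from the exchange of one box and the alternating
property. -/
def RowGK : Prop := ∀ (B A : Type) [DecidableEq B] (k m : ℕ) (x : Fin k → B) (w : Fin m → B),
  Function.Injective x → Function.Injective w → (∀ i j, x i ≠ w j) →
  ∀ V : (B → A) → ℂ,
  (∀ e i j, i ≠ j → V (fun p => e (Equiv.swap (x i) (x j) p)) = - V e) →
  (∀ e i, V e = ∑ j, V (fun p => e (Equiv.swap (x i) (w j) p))) →
  ∀ e, V e ≠ 0 → ∃ ι : Fin k → Fin m, Function.Injective ι ∧ V (exch x w ι e) ≠ 0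

/-- Number of boxes of row `i` in the columns `L`. -/
def cnt {a N : ℕ} {l : Fin N → ℕ} (e : Box l → Fin a) (i : Fin a) (L : Finset (Fin N)) : ℕ :=
  (univ.filter (fun p : Box l => e p = i ∧ p.1 ∈ L)).card

/-- Row BAL (from GA and GK): a filling with many boxes of every row in every `L g`. -/
def RowBAL : Prop := ∀ (n a b N G x : ℕ) (l : Fin N → ℕ)
  (F : MultilinearMap ℂ (fun _ : Fin a => MvPolynomial (Fin n) ℂ) ℂ), IsDeg b F →
  ∀ L : Fin G → Finset (Fin N), (∀ g h, g ≠ h → Disjoint (L g) (L h)) →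
  (∀ g, ∀ t1 ∈ L g, ∀ t, (∀ h, t ∉ L h) → l t ≤ l t1) →
  (∀ g, 2 * (N - ∑ h, (L h).card) * (x + Nat.log 2 a + 1) ≤
    (L g).card * (b - ∑ h, (L h).card)) →
  ∑ h, (L h).card < N →
  (∃ e, VV F l e ≠ 0) → ∃ e, VV F l e ≠ 0 ∧ ∀ g i, x ≤ cnt e i (L g)

/-- Spread of a special group: box `s i` goes to row `σ i`. -/
noncomputable def spr {B : Type} {a : ℕ} (s : Fin a → B) (σ : Equiv.Perm (Fin a))
    (e : B → Fin a) : B → Fin a := fun p =>
  open Classical in if h : ∃ i, s i = p then σ h.choose else e p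

/-- Row R1: removal of one special group. -/
def RowR1 : Prop := ∀ (B : Type) [Fintype B] [DecidableEq B] (a : ℕ) (V : (B → Fin a) → ℂ)
  (Z : Finset B) (β : Fin a → ℕ) (e0 : B → Fin a) (π : Equiv.Perm (Fin a)),
  (∀ m : Fin a, (m : ℕ) + 1 ≤ β (π m)) →
  (∀ e : B → Fin a, (∀ p, p ∉ Z → e p = e0 p) →
    (∀ i, (Z.filter (fun p => e p = i)).card = β i) →
    ∀ s : Fin a → B, (∀ i, s i ∈ Z) → (∀ i, e (s i) = i) →
      ∑ σ : Equiv.Perm (Fin a), V (spr s σ e) = 0) →
  ∀ e : B → Fin a, (∀ p, p ∉ Z → e p = e0 p) →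
    (∀ i, (Z.filter (fun p => e p = i)).card = β i) → V e = 0

/-- Spread of the special groups: `sp p = some k` for the boxes of the group `k`. -/
def sprU {B : Type} {a u : ℕ} (sp : B → Option (Fin u)) (τ : Fin u → Equiv.Perm (Fin a))
    (e : B → Fin a) : B → Fin a := fun p =>
  match sp p with
  | none => e p
  | some k => τ k (e p)

/-- Row R2 (from R1): removal of all special groups. -/
def RowR2 : Prop := ∀ (B : Type) [Fintype B] [DecidableEq B] (a u G r : ℕ)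
  (V : (B → Fin a) → ℂ) (gr : Fin u → Fin G) (Z : Fin G → Finset B),
  (∀ g h, g ≠ h → Disjoint (Z g) (Z h)) →
  (∀ g, (univ.filter (fun k => gr k = g)).card ≤ r) →
  ∀ (β : Fin G → Fin a → ℕ) (e0 : B → Fin a) (π : Fin G → Equiv.Perm (Fin a)),
  (∀ g (m : Fin a), (m : ℕ) + r ≤ β g (π g m)) → 1 ≤ r →
  (∀ e : B → Fin a, (∀ p, (∀ g, p ∉ Z g) → e p = e0 p) →
    (∀ g i, ((Z g).filter (fun p => e p = i)).card = β g i) →
    ∀ sp : B → Option (Fin u), (∀ p k, sp p = some k → p ∈ Z (gr k)) →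
      (∀ k i, ∃ p, sp p = some k ∧ e p = i) →
      (∀ k p p', sp p = some k → sp p' = some k → e p = e p' → p = p') →
      ∑ τ : Fin u → Equiv.Perm (Fin a), V (sprU sp τ e) = 0) →
  ∀ e : B → Fin a, (∀ p, (∀ g, p ∉ Z g) → e p = e0 p) →
    (∀ g i, ((Z g).filter (fun p => e p = i)).card = β g i) → V e = 0

/-- Row SORT: the sorted sizes. -/
def RowSORT : Prop := ∀ (a r x d ℓ : ℕ) (c : Fin a → ℕ), (∀ i, c i ≤ ℓ) → (∀ i, x ≤ c i) →
  ∑ i, (ℓ - c i) ≤ d * ℓ →
  (∀ m, x < m + r → m < a → d * ℓ < (m + 1) * (ℓ + 1 - (m + r))) →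
  ∃ π : Equiv.Perm (Fin a), ∀ m : Fin a, (m : ℕ) + r ≤ c (π m)

end Vale.Agent.P181.LK
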