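import Vale.Agent.P181.LK.Final
import Vale.Agent.P181.H106.Tail2G
import Vale.Agent.P181.H676.Rate

/-!
P181: `b = q a + u`: the proportion of the partitions which are covered.
-/

set_option autoImplicit false

open scoped TensorProduct

namespace Vale.Agent.P181.LK

open Vale.Agent.P181 Vale.Agent.P181.H280 Vale.Agent.P181.H179 Vale.Agent.P181.H676 Finset

lemma tail2' {a m b z : ℕ} (hm : 1 ≤ m) (hma : 2 * m ≤ a) (hb : 2 * a ≤ b)
    (hz : 42 * (z + m) * a ≤ m * b) (hi : a - m < a) :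
    ((Lam a (a * b)).filter (fun l => l ⟨a - m, hi⟩ < z)).card * 2 ^ m ≤
      16 * (Lam a (a * b)).card := by
  obtain ⟨r, rfl⟩ : ∃ r, a = r + m := ⟨a - m, by omega⟩
  have h1 := H106.tail2 (r := r) (m := m) (b := b) (z := z) (by omega) hm (by omega) hb hz
  have h2 : (⟨r + m - m, hi⟩ : Fin (r + m)) = Fin.natAdd r ⟨0, hm⟩ := Fin.ext (by simp)
  rw [h2]
  exact_mod_cast h1

/-- All but a small proportion of the partitions. -/
theorem almost_countLK (hNUM : NumLK) {a q s u b : ℕ} (ha2 : 2 ≤ a) (hs : 1 ≤ s)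
    (hq : 43680 * (s + 1) ^ 2 ≤ q) (hu : u < a) (hb : b = q * a + u)
    (ha : (10 : ℝ) ^ 6 * (s : ℝ) ^ 13 * (q : ℝ) ^ 6 * Real.log a ≤ a) :
    ∃ Ψ : Pleth a b a →ₗ[ℂ] Pleth b a a, IsEquivariant Ψ ∧
      {lam : Fin a → ℕ | Antitone lam ∧ ∑ i, lam i = a * b ∧
        ¬ (InjOnHW Ψ lam ∧ plethMult a b a lam ≤ plethMult b a a lam)}.ncard * 2 ^ (s / 4) ≤
      (a * b + 17) * {lam : Fin a → ℕ | Antitone lam ∧ ∑ i, lam i = a * b}.ncard := by
  classical
  subst hb
  have hq60 : 60 * (s + 1) ≤ q := by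
    refine le_trans ?_ hq
    calc 60 * (s + 1) = 60 * ((s + 1) * 1) := by ring
      _ ≤ 43680 * ((s + 1) * (s + 1)) :=
        Nat.mul_le_mul (by omega) (Nat.mul_le_mul_left _ (by omega))
      _ = 43680 * (s + 1) ^ 2 := by ring
  have ha1 : 1400 * s ^ 12 * q ^ 4 ≤ a := (hNUM a q s u ha2 hs hq60 hu ha).1
  have hsR : (1 : ℝ) ≤ s := by exact_mod_cast hs
  have haR : (2 : ℝ) ≤ a := by exact_mod_cast ha2
  obtain ⟨X, hX⟩ : ∃ X : ℕ, X = ⌈30000 * (s : ℝ) ^ 14 * (q : ℝ) ^ 6 * Real.log a⌉₊ := ⟨_, rfl⟩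
  have hX1 : 30000 * (s : ℝ) ^ 14 * (q : ℝ) ^ 6 * Real.log a ≤ X := by
    rw [hX]
    exact Nat.le_ceil _
  have hlog : 0 ≤ Real.log (a : ℝ) := Real.log_nonneg (by linarith)
  have hX2 : X ≤ s * a + 1 := by
    have h1 : (X : ℝ) < 30000 * (s : ℝ) ^ 14 * (q : ℝ) ^ 6 * Real.log a + 1 := by
      rw [hX]
      exact Nat.ceil_lt_add_one (by positivity)
    have h2 : 30000 * (s : ℝ) ^ 14 * (q : ℝ) ^ 6 * Real.log a ≤ s * a := by
      have h3 := mul_le_mul_of_nonneg_left ha (by linarith : (0 : ℝ) ≤ (s : ℝ))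
      have h4 : 0 ≤ (s : ℝ) ^ 14 * (q : ℝ) ^ 6 * Real.log a := by positivity
      nlinarith
    have h3 : (X : ℝ) < ((s * a + 1 : ℕ) : ℝ) := by
      push_cast
      linarith
    have h4 : X < s * a + 1 := by exact_mod_cast h3
    omega
  obtain ⟨Ψ, hΨ, hlk⟩ := lk hNUM (n := a) ha2 hs hq60 hu ha hX1 (Nat.le_add_right _ _)
  refine ⟨Ψ, hΨ, ?_⟩
  have hsqa : s * a + X ≤ q * a := by
    have h1 : 60 * (s + 1) * a ≤ q * a := Nat.mul_le_mul_right a hq60
    have h2 : 60 * (s + 1) * a = 60 * (s * a) + 60 * a := by ring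
    omega
  have hs10 : 10 * (s * (s + 1)) ≤ a := by
    refine le_trans ?_ ha1
    have h1 : s * s ≤ s ^ 12 := by
      calc s * s = s ^ 2 := by ring
        _ ≤ s ^ 12 := Nat.pow_le_pow_right hs (by omega)
    have h2 : 1 ≤ q ^ 4 := Nat.one_le_pow _ _ (by omega)
    have h3 : s * 1 ≤ s * s := Nat.mul_le_mul_left s hs
    calc 10 * (s * (s + 1)) = 10 * (s * s) + 10 * (s * 1) := by ring
      _ ≤ 1400 * (s * s) := by omega
      _ ≤ 1400 * s ^ 12 := Nat.mul_le_mul_left _ h1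
      _ = 1400 * s ^ 12 * 1 := by ring
      _ ≤ 1400 * s ^ 12 * q ^ 4 := Nat.mul_le_mul_left _ h2
  have hda : a / (40 * (s + 1)) < a := Nat.div_lt_self (by omega) (by omega)
  have hd40 : a < 40 * (s + 1) * (a / (40 * (s + 1)) + 1) := by
    have h1 := Nat.lt_mul_div_succ a (by omega : 0 < 40 * (s + 1))
    exact h1
  have hd80 : 40 * (s + 1) * (a / (40 * (s + 1))) ≤ a := Nat.mul_div_le _ _
  have ha1400 : 1400 ≤ a := by
    refine le_trans ?_ ha1
    have h1 : 1 ≤ s ^ 12 := Nat.one_le_pow _ _ hs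
    have h2 : 1 ≤ q ^ 4 := Nat.one_le_pow _ _ (by omega)
    calc 1400 = 1400 * 1 * 1 := by ring
      _ ≤ 1400 * s ^ 12 * q ^ 4 := Nat.mul_le_mul (Nat.mul_le_mul_left _ h1) h2
  obtain ⟨d, hd⟩ : ∃ d, d = a / (40 * (s + 1)) := ⟨_, rfl⟩
  rw [← hd] at hda hd40 hd80 hlk
  have hd2 : 80 * d ≤ a := by
    refine le_trans ?_ hd80
    exact Nat.mul_le_mul_right d (by omega)
  have hi : a - (d + 1) < a := by omega
  have hs4 : s / 4 ≤ d + 1 := by
    have h1 : 10 * (s * (s + 1)) < 40 * (s + 1) * (d + 1) := lt_of_le_of_lt hs10 hd40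
    have h2 : 10 * (s + 1) * s < 10 * (s + 1) * (4 * (d + 1)) := by
      calc 10 * (s + 1) * s = 10 * (s * (s + 1)) := by ring
        _ < 40 * (s + 1) * (d + 1) := h1
        _ = 10 * (s + 1) * (4 * (d + 1)) := by ring
    have h3 := Nat.lt_of_mul_lt_mul_left h2
    omega
  have hab2 : 2 * a ≤ q * a + u := by
    have h1 : 2 * a ≤ q * a := Nat.mul_le_mul_right a (by omega)
    omega
  -- the two exceptional sets
  have hB1 := bad_le (a := a) (b := q * a + u) (s := s) (by omega) (by omega)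
  have hB2 := tail2' (a := a) (m := d + 1) (b := q * a + u) (z := 25 * (s + 1) * a) (by omega)
    (by omega) hab2 (by
      have h1 : d + 1 ≤ (s + 1) * a := by
        have h2 : 1 * a ≤ (s + 1) * a := Nat.mul_le_mul_right a (by omega)
        omega
      have h3 : 42 * (26 * ((s + 1) * a)) * a ≤ (d + 1) * (q * a) := by
        calc 42 * (26 * ((s + 1) * a)) * a = 1092 * (s + 1) * a * a := by ring
          _ ≤ 1092 * (s + 1) * a * (40 * (s + 1) * (d + 1)) :=
            Nat.mul_le_mul_left _ hd40.le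
          _ = (d + 1) * (43680 * (s + 1) ^ 2 * a) := by ring
          _ ≤ (d + 1) * (q * a) := Nat.mul_le_mul_left _ (Nat.mul_le_mul_right a hq)
      calc 42 * (25 * (s + 1) * a + (d + 1)) * a ≤ 42 * (26 * ((s + 1) * a)) * a := by
            apply Nat.mul_le_mul_right
            apply Nat.mul_le_mul_left
            have h4 : 25 * (s + 1) * a = 25 * ((s + 1) * a) := by ring
            omega
        _ ≤ (d + 1) * (q * a) := h3
        _ ≤ (d + 1) * (q * a + u) := Nat.mul_le_mul_left _ (Nat.le_add_right _ _)) hi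
  have h2 : {lam : Fin a → ℕ | Antitone lam ∧ ∑ i, lam i = a * (q * a + u) ∧
      ¬ (InjOnHW Ψ lam ∧
        plethMult a (q * a + u) a lam ≤ plethMult (q * a + u) a a lam)} ⊆
      ((((Lam a (a * (q * a + u))).filter fun l => ¬ ∀ i, l i ≤ s * (q * a + u)) ∪
        ((Lam a (a * (q * a + u))).filter fun l => l ⟨a - (d + 1), hi⟩ < 25 * (s + 1) * a) :
        Finset (Fin a → ℕ)) : Set (Fin a → ℕ)) := by
    rintro lam ⟨h3, h4, h5⟩
    rw [Finset.mem_coe, Finset.mem_union, Finset.mem_filter, Finset.mem_filter, mem_Lam]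
    by_contra h6
    rw [not_or] at h6
    apply h5
    have h7 : ∀ i, lam i ≤ s * (q * a + u) := by
      by_contra h
      exact h6.1 ⟨⟨h3, h4⟩, h⟩
    have h8 : 25 * (s + 1) * a ≤ lam ⟨a - (d + 1), hi⟩ := by
      by_contra h
      exact h6.2 ⟨⟨h3, h4⟩, by omega⟩
    refine hlk lam (fun i => ?_) (fun i hi' => h8.trans (h3 ?_))
    · have h9 := h7 i
      have h10 : s * (q * a + u) ≤ s * (q * a) + s * a := by
        rw [mul_add]
        exact Nat.add_le_add_left (Nat.mul_le_mul_left s hu.le) _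
      have h11 : (s + 1) * (q * a) = s * (q * a) + q * a := by ring
      omega
    · rw [Fin.le_def]
      simp only
      omega
  have h3 := (Set.ncard_le_ncard h2 (Finset.finite_toSet _))
  rw [Set.ncard_coe_finset] at h3
  have h4 := h3.trans (Finset.card_union_le _ _)
  rw [GP.coe_Lam, Set.ncard_coe_finset]
  have h5 : ((Lam a (a * (q * a + u))).filter
      fun l => l ⟨a - (d + 1), hi⟩ < 25 * (s + 1) * a).card * 2 ^ (s / 4) ≤
      16 * (Lam a (a * (q * a + u))).card :=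
    (Nat.mul_le_mul_left _ (Nat.pow_le_pow_right (by omega) hs4)).trans hB2
  calc _ ≤ _ := Nat.mul_le_mul_right _ h4
    _ = ((Lam a (a * (q * a + u))).filter fun l => ¬ ∀ i, l i ≤ s * (q * a + u)).card *
          2 ^ (s / 4) + ((Lam a (a * (q * a + u))).filter
        fun l => l ⟨a - (d + 1), hi⟩ < 25 * (s + 1) * a).card * 2 ^ (s / 4) := by ring
    _ ≤ (a * (q * a + u) + 1) * (Lam a (a * (q * a + u))).card +
          16 * (Lam a (a * (q * a + u))).card := Nat.add_le_add hB1 h5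
    _ = _ := by ring

end Vale.Agent.P181.LK
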