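import Vale.Agent.P181.LK.Inj
import Vale.Agent.P181.GP.Final
import Vale.Agent.P181.H388.LKSTAR
import Vale.Agent.P181.H439.LKSORT
import Vale.Agent.P181.H292.LKGK
import Vale.Agent.P181.H67.LBAL
import Vale.Agent.P181.H629.LKR1
import Vale.Agent.P181.H54.LKR2
import Vale.Agent.P181.H530.LKGG
import Vale.Agent.P181.H179.LKGA

/-!
P181: `b = q a + u` and many almost full columns: the injectivity of the array map.
-/

set_option autoImplicit false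

open scoped TensorProduct

namespace Vale.Agent.P181.LK

open Vale.Agent.P181 Vale.Agent.P181.H280 Vale.Agent.P181.H179 Vale.Agent.P181.H530
  Vale.Agent.P181.H54B Finset

theorem bal : RowBAL := H67.LBal.rowBAL H179.rowGA H292.rowGK

theorem r2 : RowR2 := H54.R2.rowR2 R1.rowR1

theorem star : RowSTAR := H388.rowSTAR H530.rowGG GP.gpm

/-- Numbers. -/
def NumLK : Prop := ∀ a q s u : ℕ, 2 ≤ a → 1 ≤ s → 60 * (s + 1) ≤ q → u < a →
  (10 : ℝ) ^ 6 * (s : ℝ) ^ 13 * (q : ℝ) ^ 6 * Real.log a ≤ a →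
  1400 * s ^ 12 * q ^ 4 ≤ a ∧
  (∃ D : ℕ, 30000 * (s : ℝ) ^ 12 * (q : ℝ) ^ 6 * Real.log a ≤ D ∧
    (a / (24 * (s + 1)) + 1) + a / (12 * (s + 1)) + D ≤ a / (5 * (s + 1))) ∧
  u ≤ 24 * (s + 1) * (a / (24 * (s + 1)) + 1) ∧ a / (12 * (s + 1)) < a ∧
  24 * (s + 1) * (a + a / (12 * (s + 1))) ≤ 25 * (s + 1) * a ∧
  2 * ((s + 1) * (q * a)) * (a / (5 * (s + 1)) + Nat.log 2 a + 1) ≤
    (a + a / (12 * (s + 1))) * (q * a + u - 24 * (s + 1) * (a + a / (12 * (s + 1)))) ∧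
  ∀ m, a / (5 * (s + 1)) < m + (a / (24 * (s + 1)) + 1) → m < a →
    a / (40 * (s + 1)) * (a + a / (12 * (s + 1))) <
      (m + 1) * (a + a / (12 * (s + 1)) + 1 - (m + (a / (24 * (s + 1)) + 1)))

/-- **All `b = q a + u`.** -/
theorem lk (hNUM : NumLK) {a q s u X n : ℕ} (ha2 : 2 ≤ a) (hs : 1 ≤ s) (hq : 60 * (s + 1) ≤ q) (hu : u < a)
    (ha : (10 : ℝ) ^ 6 * (s : ℝ) ^ 13 * (q : ℝ) ^ 6 * Real.log a ≤ a)
    (hX : 30000 * (s : ℝ) ^ 14 * (q : ℝ) ^ 6 * Real.log a ≤ X)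
    (hn : a ≤ n + a / (40 * (s + 1))) :
    ∃ Ψ : Pleth a (q * a + u) n →ₗ[ℂ] Pleth (q * a + u) a n, IsEquivariant Ψ ∧
      ∀ lam : Fin n → ℕ, (∀ i, lam i + X ≤ (s + 1) * (q * a)) →
        (∀ i : Fin n, (i : ℕ) + 1 + a / (40 * (s + 1)) ≤ a → 25 * (s + 1) * a ≤ lam i) →
        InjOnHW Ψ lam ∧ plethMult a (q * a + u) n lam ≤ plethMult (q * a + u) a n lam := by
  obtain ⟨ε, E, hE⟩ := exists_bulk_arr a q u
  obtain ⟨h1, ⟨D, h2, h3⟩, h4, h5, h6, h7, h8⟩ := hNUM a q s u ha2 hs hq hu ha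
  have hda : a / (40 * (s + 1)) < a := Nat.div_lt_self (by omega) (by omega)
  obtain ⟨d, hd⟩ : ∃ d, d = a / (40 * (s + 1)) := ⟨_, rfl⟩
  rw [← hd] at hn hda h8
  rw [← hd]
  have hinj : ∀ lam : Fin n → ℕ, (∀ i, lam i + X ≤ (s + 1) * (q * a)) →
      (∀ i : Fin n, (i : ℕ) + 1 + d ≤ a → 25 * (s + 1) * a ≤ lam i) →
      ∀ x ∈ hwSpace lam (plethAct a (q * a + u) n),
        arrMap a (q * a + u) E (Fin n → ℂ) x = 0 → x = 0 := by
    intro lam hlam hlong x hx h0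
    refine injLK bal r2 H439.rowSORT star (G := 24 * (s + 1)) (D := D) (X := X)
      (x := a / (5 * (s + 1))) (a2 := a / (12 * (s + 1))) (d := d)
      (r := a / (24 * (s + 1)) + 1) hs (by omega) hu (by omega) h4 (Nat.le_add_left 1 _) h1 hX
      h2 h5 h3 h7 h8 ε E hE lam hlam hda (by omega) ?_ x hx h0
    refine h6.trans (hlong _ ?_)
    simp only
    omega
  refine ⟨arrMap a (q * a + u) E (Fin n → ℂ),
    fun g x => LinearMap.congr_fun (arrMap_equivariant a (q * a + u) E (Matrix.toLin' g)) x,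
    fun lam hlam hlong => ⟨fun x hx h0 => hinj lam hlam hlong x hx h0, ?_⟩⟩
  exact finrank_le_of_inj (arrMap a (q * a + u) E (Fin n → ℂ)) _ _
    (fun x hx => arrMap_hwSpace E lam x hx) (hinj lam hlam hlong)

end Vale.Agent.P181.LK
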