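import Vale.Agent.P181.LK.Pure
import Vale.Agent.P181.H304.LKMID

/-!
P181: `b = q a + u` and many almost full columns: the array map is injective.
-/

set_option autoImplicit false

open scoped TensorProduct

namespace Vale.Agent.P181.LK

open Vale.Agent.P181 Vale.Agent.P181.H280 Vale.Agent.P181.H179 Vale.Agent.P181.H530
  Vale.Agent.P181.H54B Finset

theorem injLK (hBAL : RowBAL) (hR2 : RowR2) (hSORT : RowSORT) (hSTAR : RowSTAR)
    {n a q s u G D X x a2 d r : ℕ} (hs : 1 ≤ s) (hq : 2 ≤ q) (hu : u < a) (hGq : G < q)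
    (hur : u ≤ G * r) (hr1 : 1 ≤ r)
    (ha : 1400 * s ^ 12 * q ^ 4 ≤ a)
    (hX : 30000 * (s : ℝ) ^ 14 * (q : ℝ) ^ 6 * Real.log a ≤ X)
    (hD : 30000 * (s : ℝ) ^ 12 * (q : ℝ) ^ 6 * Real.log a ≤ D)
    (ha2 : a2 < a) (hx : r + a2 + D ≤ x)
    (hbal : 2 * ((s + 1) * (q * a)) * (x + Nat.log 2 a + 1) ≤
      (a + a2) * (q * a + u - G * (a + a2)))
    (hsort : ∀ m, x < m + r → m < a → d * (a + a2) < (m + 1) * (a + a2 + 1 - (m + r)))
    (ε : Fin (q * a + u) ≃ Gp a q u) (E : Equiv.Perm (Fin a × Fin (q * a + u)))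
    (hE : ∀ i j, (E (i, j)).1 = Sum.elim Prod.fst (fun _ => i) (ε j))
    (lam : Fin n → ℕ) (hlam : ∀ m, lam m + X ≤ (s + 1) * (q * a))
    (hda : d < a) (hn : a - d - 1 < n) (hlong : G * (a + a2) ≤ lam ⟨a - d - 1, hn⟩)
    (z : Sym[ℂ]^a (Sym[ℂ]^(q * a + u) (Fin n → ℂ)))
    (hz : z ∈ hwSpace lam (plethAct a (q * a + u) n))
    (hz0 : arrMap a (q * a + u) E (Fin n → ℂ) z = 0) : z = 0 := by
  classical
  obtain ⟨l, rfl⟩ := exists_elOf z
  apply elOf_zero_of_fullForm
  by_contra hne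
  have hXle : X ≤ (s + 1) * (q * a) := by
    have := hlam ⟨a - d - 1, hn⟩
    omega
  obtain ⟨N, hN, l', e1, hV1, hcnt⟩ := exists_VV_col ((s + 1) * (q * a) - X) (wt lam) (fullForm l)
    (fullForm_hw lam l hz) hne
    (fun m hm => by rw [wt, dif_neg (by omega)]) (fun m => by
      rw [wt]
      split_ifs with h
      · have := hlam ⟨m, h⟩
        omega
      · exact Nat.zero_le _)
  have ha0 : 0 < a := by omega
  have hNb : q * a + u ≤ N := by
    have h1 := VV_card (fullForm_deg l) hV1 ⟨0, ha0⟩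
    rw [← h1]
    have h2 : (univ.filter (fun p : Box l' => e1 p = ⟨0, ha0⟩)).card ≤
        (univ : Finset (Fin N)).card := by
      apply Finset.card_le_card_of_injOn (fun p => p.1) (fun _ _ => Finset.mem_coe.2
        (Finset.mem_univ _))
      intro p hp p' hp' h
      have h3 := (Finset.mem_filter.1 (Finset.mem_coe.1 hp)).2
      have h4 := (Finset.mem_filter.1 (Finset.mem_coe.1 hp')).2
      exact VV_row_inj hV1 h (h3.trans h4.symm)
    rwa [Finset.card_univ, Fintype.card_fin] at h2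
  have hGl : G * (a + a2) < q * a + u := by
    by_contra h
    have h1 : q * a + u - G * (a + a2) = 0 := by omega
    rw [h1, mul_zero] at hbal
    have h2 : 0 < 2 * ((s + 1) * (q * a)) * (x + Nat.log 2 a + 1) :=
      Nat.mul_pos (Nat.mul_pos (by omega) (Nat.mul_pos (by omega) (Nat.mul_pos (by omega) ha0)))
        (by omega)
    omega
  obtain ⟨T, hT1, hT2⟩ := exists_long l' (G * (a + a2)) (by omega)
  have hTlong : ∀ t ∈ T, a ≤ l' t + d := by
    intro t ht
    by_contra hlt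
    have h1 := hcnt (a - d - 1)
    rw [wt, dif_pos hn] at h1
    have h2 : univ.filter (fun t' => a - d - 1 < l' t') ⊆ T.erase t := by
      intro t' ht'
      have h3 := (Finset.mem_filter.1 ht').2
      rw [Finset.mem_erase]
      constructor
      · intro h4
        subst h4
        omega
      · by_contra h4
        have h5 := hT2 t ht t' h4
        omega
    have h3 := Finset.card_le_card h2
    rw [h1, Finset.card_erase_of_mem ht, hT1] at h3
    have h4 : 0 < T.card := Finset.card_pos.2 ⟨t, ht⟩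
    rw [hT1] at h4
    omega
  obtain ⟨L, hL1, hL2, hL3⟩ := exists_parts T G (a + a2) hT1
  obtain ⟨gr, hgr⟩ := exists_gr hur hr1
  refine hV1 (H304.LK.mid hBAL hSORT hR2 hSTAR (X := X) (D := D) (s := s) (x := x) (r := r)
    (a2 := a2) (d := d) hs hq hu hGq ha hX hD (by omega) ε E hE l hz0 (fullForm_deg l) gr L hL2
    hr1 hgr hL1 ha2 hx ?_ ?_ ?_ ?_ hsort e1)
  · intro g t1 ht1 t ht
    exact hT2 t1 ((hL3 t1).2 ⟨g, ht1⟩) t (fun h => by
      obtain ⟨g', h'⟩ := (hL3 t).1 h
      exact ht g' h')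
  · intro g t ht
    exact hTlong t ((hL3 t).2 ⟨g, ht⟩)
  · refine le_trans (Nat.mul_le_mul (Nat.mul_le_mul_left 2 (by omega)) le_rfl)
      (le_trans hbal le_rfl)
  · omega

end Vale.Agent.P181.LK
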