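import Vale.Agent.P181.LK.Spec2
import Vale.Agent.P181.H530.F3

/-!
P181, almost full columns: pure lemmas for the top theorem.
-/

set_option autoImplicit false

open scoped TensorProduct

namespace Vale.Agent.P181.LK

open Vale.Agent.P181 Vale.Agent.P181.H280 Vale.Agent.P181.H179 Vale.Agent.P181.H530 Finset

/-- The longest columns. -/
lemma exists_long {N : ℕ} (l : Fin N → ℕ) : ∀ m, m ≤ N → ∃ T : Finset (Fin N), T.card = m ∧
    ∀ t1 ∈ T, ∀ t, t ∉ T → l t ≤ l t1 := by
  classical
  intro m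
  induction m with
  | zero =>
    intro _
    exact ⟨∅, rfl, fun t1 h => absurd h (Finset.notMem_empty _)⟩
  | succ m ih =>
    intro hm
    obtain ⟨T, h1, h2⟩ := ih (by omega)
    have hne : (univ.filter (fun t => t ∉ T)).Nonempty := by
      by_contra h
      rw [Finset.not_nonempty_iff_eq_empty] at h
      have h3 : (univ : Finset (Fin N)) ⊆ T := by
        intro t _
        by_contra h4
        have h5 : t ∈ univ.filter (fun t => t ∉ T) :=
          Finset.mem_filter.2 ⟨Finset.mem_univ _, h4⟩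
        rw [h] at h5
        exact Finset.notMem_empty _ h5
      have h4 := Finset.card_le_card h3
      rw [Finset.card_univ, Fintype.card_fin, h1] at h4
      omega
    obtain ⟨t0, ht0, hmax⟩ := Finset.exists_max_image _ l hne
    have ht0' : t0 ∉ T := (Finset.mem_filter.1 ht0).2
    refine ⟨insert t0 T, by rw [Finset.card_insert_of_notMem ht0', h1], ?_⟩
    intro t1 ht1 t ht
    rw [Finset.mem_insert, not_or] at ht
    rcases Finset.mem_insert.1 ht1 with h | h
    · subst h
      exact hmax t (Finset.mem_filter.2 ⟨Finset.mem_univ _, ht.2⟩)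
    · exact h2 t1 h t ht.2

lemma exists_parts {N : ℕ} (T : Finset (Fin N)) (G ℓ : ℕ) (hT : T.card = G * ℓ) :
    ∃ L : Fin G → Finset (Fin N), (∀ g, (L g).card = ℓ) ∧ (∀ g h, g ≠ h → Disjoint (L g) (L h)) ∧
      ∀ t, t ∈ T ↔ ∃ g, t ∈ L g := by
  classical
  let φ : T ≃ Fin G × Fin ℓ := (T.equivFin.trans (finCongr hT)).trans finProdFinEquiv.symm
  refine ⟨fun g => univ.image (fun j : Fin ℓ => (φ.symm (g, j)).1), ?_, ?_, ?_⟩
  · intro g
    rw [Finset.card_image_of_injective, Finset.card_univ, Fintype.card_fin]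
    intro j j' h
    have h1 := φ.symm.injective (Subtype.ext h)
    exact (Prod.ext_iff.1 h1).2
  · intro g h hgh
    rw [Finset.disjoint_left]
    intro t h1 h2
    obtain ⟨j, _, rfl⟩ := Finset.mem_image.1 h1
    obtain ⟨j', _, h3⟩ := Finset.mem_image.1 h2
    have h4 := φ.symm.injective (Subtype.ext h3)
    exact hgh (Prod.ext_iff.1 h4).1.symm
  · intro t
    constructor
    · intro ht
      refine ⟨(φ ⟨t, ht⟩).1, Finset.mem_image.2 ⟨(φ ⟨t, ht⟩).2, Finset.mem_univ _, ?_⟩⟩
      have h1 : ((φ ⟨t, ht⟩).1, (φ ⟨t, ht⟩).2) = φ ⟨t, ht⟩ := rfl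
      rw [h1, Equiv.symm_apply_apply]
    · rintro ⟨g, hg⟩
      obtain ⟨j, _, rfl⟩ := Finset.mem_image.1 hg
      exact (φ.symm (g, j)).2

lemma exists_gr {u G r : ℕ} (h : u ≤ G * r) (hr : 1 ≤ r) : ∃ gr : Fin u → Fin G,
    ∀ g, (univ.filter (fun k => gr k = g)).card ≤ r := by
  classical
  refine ⟨fun k => ⟨k / r, Nat.div_lt_of_lt_mul (by rw [mul_comm]; exact k.2.trans_le h)⟩,
    fun g => ?_⟩
  refine le_trans (b := (Finset.range r).card) ?_ (le_of_eq (Finset.card_range r))
  apply Finset.card_le_card_of_injOn (fun k : Fin u => (k : ℕ) % r)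
  · intro k _
    exact Finset.mem_coe.2 (Finset.mem_range.2 (Nat.mod_lt _ (by omega)))
  · intro k hk k' hk' h1
    have h2 := (Finset.mem_filter.1 (Finset.mem_coe.1 hk)).2
    have h3 := (Finset.mem_filter.1 (Finset.mem_coe.1 hk')).2
    have h4 : (k : ℕ) / r = (k' : ℕ) / r := congrArg Fin.val (h2.trans h3.symm)
    have h5 : (k : ℕ) % r = (k' : ℕ) % r := h1
    have h6 := Nat.div_add_mod (k : ℕ) r
    have h7 := Nat.div_add_mod (k' : ℕ) r
    rw [h4, h5] at h6
    exact Fin.ext (h6.symm.trans h7)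

lemma card_split {B : Type} [Fintype B] [DecidableEq B] {G : ℕ} (Z : Fin G → Finset B)
    (hZ : ∀ g h, g ≠ h → Disjoint (Z g) (Z h)) (P : B → Prop) [DecidablePred P] :
    (univ.filter P).card =
      (univ.filter (fun p => P p ∧ ∀ g, p ∉ Z g)).card + ∑ g, ((Z g).filter P).card := by
  classical
  have h1 : univ.filter P = univ.filter (fun p => P p ∧ ∀ g, p ∉ Z g) ∪
      univ.biUnion (fun g => (Z g).filter P) := by
    ext p
    rw [Finset.mem_union, Finset.mem_filter, Finset.mem_filter, Finset.mem_biUnion]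
    constructor
    · rintro ⟨_, hp⟩
      by_cases h : ∀ g, p ∉ Z g
      · exact Or.inl ⟨Finset.mem_univ _, hp, h⟩
      · push Not at h
        obtain ⟨g, hg⟩ := h
        exact Or.inr ⟨g, Finset.mem_univ _, Finset.mem_filter.2 ⟨hg, hp⟩⟩
    · rintro (⟨_, hp, _⟩ | ⟨g, _, hg⟩)
      · exact ⟨Finset.mem_univ _, hp⟩
      · exact ⟨Finset.mem_univ _, (Finset.mem_filter.1 hg).2⟩
  have h2 : Disjoint (univ.filter (fun p => P p ∧ ∀ g, p ∉ Z g))
      (univ.biUnion (fun g => (Z g).filter P)) := by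
    rw [Finset.disjoint_left]
    intro p h3 h4
    obtain ⟨g, _, hg⟩ := Finset.mem_biUnion.1 h4
    exact (Finset.mem_filter.1 h3).2.2 g (Finset.mem_filter.1 hg).1
  rw [h1, Finset.card_union_of_disjoint h2, Finset.card_biUnion]
  intro g _ h _ hgh
  exact Finset.disjoint_filter_filter (hZ g h hgh)

variable {n a N : ℕ} {l : Fin N → ℕ}

lemma VV_swap (F : MultilinearMap ℂ (fun _ : Fin a => MvPolynomial (Fin n) ℂ) ℂ)
    (e : Box l → Fin a) (t : Fin N) {v w : Fin (l t)} (hvw : v ≠ w) :
    VV F l (fun p => e (Equiv.swap ⟨t, v⟩ ⟨t, w⟩ p)) = - VV F l e := by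
  classical
  have h1 := VV_perm F e (Pi.mulSingle t (Equiv.swap v w))
  have h2 : (fun p : Box l => e ⟨p.1, (Pi.mulSingle t (Equiv.swap v w) :
      ∀ t, Equiv.Perm (Fin (l t))) p.1 p.2⟩) =
      fun p => e (Equiv.swap ⟨t, v⟩ ⟨t, w⟩ p) := by
    funext p
    congr 1
    obtain ⟨t', s⟩ := p
    by_cases ht : t' = t
    · subst ht
      simp only [Pi.mulSingle_eq_same]
      by_cases hu : s = v
      · subst hu
        rw [Equiv.swap_apply_left, Equiv.swap_apply_left]
      · by_cases hv : s = w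
        · subst hv
          rw [Equiv.swap_apply_right, Equiv.swap_apply_right]
        · rw [Equiv.swap_apply_of_ne_of_ne hu hv, Equiv.swap_apply_of_ne_of_ne]
          · intro h
            exact hu (eq_of_heq (Sigma.mk.inj h).2)
          · intro h
            exact hv (eq_of_heq (Sigma.mk.inj h).2)
    · simp only [Pi.mulSingle_eq_of_ne ht]
      rw [Equiv.swap_apply_of_ne_of_ne]
      · rfl
      · intro h
        exact ht (congrArg Sigma.fst h)
      · intro h
        exact ht (congrArg Sigma.fst h)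
  have h3 : (∏ t', ((Equiv.Perm.sign ((Pi.mulSingle t (Equiv.swap v w) :
      ∀ t, Equiv.Perm (Fin (l t))) t') : ℤ) : ℂ)) = -1 := by
    rw [Finset.prod_eq_single t]
    · rw [Pi.mulSingle_eq_same, Equiv.Perm.sign_swap hvw]
      simp
    · intro t' _ ht
      rw [Pi.mulSingle_eq_of_ne ht, Equiv.Perm.sign_one]
      simp
    · intro hh
      exact absurd (Finset.mem_univ _) hh
  rw [h2, h3, neg_one_mul] at h1
  exact h1

lemma VV_row_inj {F : MultilinearMap ℂ (fun _ : Fin a => MvPolynomial (Fin n) ℂ) ℂ}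
    {e : Box l → Fin a} (h : VV F l e ≠ 0) {p p' : Box l} (h1 : p.1 = p'.1) (h2 : e p = e p') :
    p = p' := by
  obtain ⟨t, v⟩ := p
  obtain ⟨t', v'⟩ := p'
  simp only at h1
  subst h1
  by_contra hne
  exact h (VV_anti F e t (u := v) (v := v') (fun h => hne (by rw [h])) h2)

/-- Two boxes of a special group in the same column: the sum of the spreads is zero. -/
lemma sum_spr_zero {u : ℕ} (F : MultilinearMap ℂ (fun _ : Fin a => MvPolynomial (Fin n) ℂ) ℂ)
    (e : Box l → Fin a) (sp : Box l → Option (Fin u)) (k : Fin u)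
    (hu' : ∀ p p', sp p = some k → sp p' = some k → e p = e p' → p = p')
    (t : Fin N) {v w : Fin (l t)} (hvw : v ≠ w) (h1 : sp ⟨t, v⟩ = some k)
    (h2 : sp ⟨t, w⟩ = some k) :
    ∑ τ : Fin u → Equiv.Perm (Fin a), VV F l (sprU sp τ e) = 0 := by
  classical
  let κ : Fin u → Equiv.Perm (Fin a) := Pi.mulSingle k (Equiv.swap (e ⟨t, v⟩) (e ⟨t, w⟩))
  have h3 : ∀ τ : Fin u → Equiv.Perm (Fin a), VV F l (sprU sp (τ * κ) e) =
      - VV F l (sprU sp τ e) := by
    intro τ
    rw [← VV_swap F (sprU sp τ e) t hvw]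
    congr 1
    funext p
    by_cases hp1 : p = ⟨t, v⟩
    · subst hp1
      rw [Equiv.swap_apply_left]
      simp only [sprU, h1, h2]
      have h4 : (τ * κ) k = τ k * Equiv.swap (e ⟨t, v⟩) (e ⟨t, w⟩) := by
        rw [Pi.mul_apply]
        simp only [κ, Pi.mulSingle_eq_same]
      rw [h4, Equiv.Perm.mul_apply, Equiv.swap_apply_left]
    · by_cases hp2 : p = ⟨t, w⟩
      · subst hp2
        rw [Equiv.swap_apply_right]
        simp only [sprU, h1, h2]
        have h4 : (τ * κ) k = τ k * Equiv.swap (e ⟨t, v⟩) (e ⟨t, w⟩) := by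
          rw [Pi.mul_apply]
          simp only [κ, Pi.mulSingle_eq_same]
        rw [h4, Equiv.Perm.mul_apply, Equiv.swap_apply_right]
      · rw [Equiv.swap_apply_of_ne_of_ne hp1 hp2]
        rcases hsp : sp p with _ | k'
        · simp only [sprU, hsp]
        · simp only [sprU, hsp]
          by_cases hk : k' = k
          · subst hk
            have h4 : (τ * κ) k' = τ k' * Equiv.swap (e ⟨t, v⟩) (e ⟨t, w⟩) := by
              rw [Pi.mul_apply]
              simp only [κ, Pi.mulSingle_eq_same]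
            rw [h4, Equiv.Perm.mul_apply, Equiv.swap_apply_of_ne_of_ne]
            · intro h5
              exact hp1 (hu' p _ hsp h1 h5)
            · intro h5
              exact hp2 (hu' p _ hsp h2 h5)
          · have h4 : (τ * κ) k' = τ k' := by
              rw [Pi.mul_apply]
              simp only [κ, Pi.mulSingle_eq_of_ne hk, mul_one]
            rw [h4]
  have h4 : ∑ τ : Fin u → Equiv.Perm (Fin a), VV F l (sprU sp τ e) =
      ∑ τ : Fin u → Equiv.Perm (Fin a), VV F l (sprU sp (τ * κ) e) :=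
    (Equiv.sum_comp (Equiv.mulRight κ) (fun τ => VV F l (sprU sp τ e))).symm
  have h5 : ∑ τ : Fin u → Equiv.Perm (Fin a), VV F l (sprU sp τ e) =
      - ∑ τ : Fin u → Equiv.Perm (Fin a), VV F l (sprU sp τ e) := by
    rw [← Finset.sum_neg_distrib]
    exact h4.trans (Finset.sum_congr rfl fun τ _ => h3 τ)
  exact self_eq_neg.1 h5

end Vale.Agent.P181.LK
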