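import Vale.Agent.P181.LK.Spec

/-!
P181: `b = q a + u` with `u` special groups in almost full columns: the relation with classes of
special groups, and the removal of all rows.
-/

set_option autoImplicit false

open scoped TensorProduct

namespace Vale.Agent.P181.LK

open Vale.Agent.P181 Vale.Agent.P181.H280 Vale.Agent.P181.H179 Vale.Agent.P181.H530 Finset

/-- Row GG: `BK.RowG` with `G < q` classes of special groups; two special groups of the same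
class share a column. -/
def RowGG : Prop := ∀ (n a q u G N Q : ℕ) (l' : Fin N → ℕ), 2 ≤ q → G < q →
  ∀ (ε : Fin (q * a + u) ≃ Gp a q u) (E : Equiv.Perm (Fin a × Fin (q * a + u))),
  (∀ i j, (E (i, j)).1 = Sum.elim Prod.fst (fun _ => i) (ε j)) →
  ∀ l : (Fin a → Fin (q * a + u) → (Fin n → ℂ)) →₀ ℂ,
  arrMap a (q * a + u) E (Fin n → ℂ) (elOf l) = 0 →
  ∀ (e : Box l' → Fin a) (fm : Box l' → (Fin a × Fin Q) ⊕ Fin u) (ty : Fin Q → Bool)
    (c gz : Bool → ℕ), (∃ z, 1 ≤ c z) →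
  (∀ i κ, (univ.filter (fun p => fm p = Sum.inl (i, κ))).card = gz (ty κ)) →
  (∀ j, (univ.filter (fun p => fm p = Sum.inr j)).card = a) →
  (∀ p p' j, fm p = Sum.inr j → fm p' = Sum.inr j → e p = e p' → p = p') →
  a = c true * gz true + c false * gz false →
  (∀ (k : Fin u) (x : Fin a × Fin Q), ∃ t v w, fm ⟨t, v⟩ = Sum.inr k ∧ fm ⟨t, w⟩ = Sum.inl x) →
  ∀ gr : Fin u → Fin G,
  (∀ k k' : Fin u, k ≠ k' → gr k = gr k' →
    ∃ t v w, fm ⟨t, v⟩ = Sum.inr k ∧ fm ⟨t, w⟩ = Sum.inr k') →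
  ∀ ρ : Fin a × Fin Q → Fin a × Fin q,
  (∀ r z, (univ.filter (fun p => ρ p = r ∧ ty p.2 = z)).card = c z) →
  ∑ σ : Equiv.Perm (Fin a × Fin q), ∑ τ : Fin u → Equiv.Perm (Fin a), VV (fullForm l) l'
    (fun p => Sum.elim (fun x => (σ (ρ x)).1) (fun j => τ j (e p)) (fm p)) = 0

/-- Row STAR (from `RowGG` and `GP.RowCLS`). -/
def RowSTAR : Prop := ∀ (n a q s u G D X N : ℕ) (l' : Fin N → ℕ), 1 ≤ s → 2 ≤ q → u < a →
  G < q → 1400 * s ^ 12 * q ^ 4 ≤ a →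
  30000 * (s : ℝ) ^ 14 * (q : ℝ) ^ 6 * Real.log a ≤ X →
  30000 * (s : ℝ) ^ 12 * (q : ℝ) ^ 6 * Real.log a ≤ D →
  N + X ≤ (s + 1) * (q * a) →
  ∀ (ε : Fin (q * a + u) ≃ Gp a q u) (E : Equiv.Perm (Fin a × Fin (q * a + u))),
  (∀ i j, (E (i, j)).1 = Sum.elim Prod.fst (fun _ => i) (ε j)) →
  ∀ l : (Fin a → Fin (q * a + u) → (Fin n → ℂ)) →₀ ℂ,
  arrMap a (q * a + u) E (Fin n → ℂ) (elOf l) = 0 →
  ∀ (e : Box l' → Fin a) (sp : Box l' → Option (Fin u)) (gr : Fin u → Fin G),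
  (∀ i, (univ.filter (fun p => e p = i ∧ sp p = none)).card = q * a) →
  (∀ k i, ∃ p, sp p = some k ∧ e p = i) →
  (∀ k p p', sp p = some k → sp p' = some k → e p = e p' → p = p') →
  (∀ k k' : Fin u, k ≠ k' → gr k = gr k' →
    ∃ t v w, sp ⟨t, v⟩ = some k ∧ sp ⟨t, w⟩ = some k') →
  (∀ k i, D ≤ (univ.filter (fun t : Fin N => (∃ v, sp ⟨t, v⟩ = some k) ∧
    ∃ w, sp ⟨t, w⟩ = none ∧ e ⟨t, w⟩ = i)).card) →
  ∑ τ : Fin u → Equiv.Perm (Fin a), VV (fullForm l) l' (sprU sp τ e) = 0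

end Vale.Agent.P181.LK
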